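import Vale.Agent.Lib.P183.Closure

open Vale.Agent.Lib.P183

/-- If `K` is isomorphic to the full congruence lattice of a finite algebra, then so is every
subset of `K` of the form `{x | ∀ i, x ≤ m i ∨ a i ≤ x}` with the induced order. -/
theorem Vale.Agent.Results.P183.Carving.result {K : Type*} [PartialOrder K]
    (hK : Representable K) {ι : Type*} (a m : ι → K) :
    Representable {x : K // ∀ i, x ≤ m i ∨ a i ≤ x} :=
  hK.carve a m
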