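import Vale.Agent.Lib.P183.Closure

open Vale.Agent.Lib.P183

/-- If a bounded lattice `K` is isomorphic to the full congruence lattice of a finite algebra, then
so is every distributive sublattice of `K` containing the bottom and the top of `K`. -/
theorem Vale.Agent.Results.P183.DistribSublattice.result {K : Type*} [Lattice K] [BoundedOrder K]
    (hK : Representable K) (S : Sublattice K) (hbot : ⊥ ∈ S) (htop : ⊤ ∈ S)
    (hdist : ∀ x ∈ S, ∀ y ∈ S, ∀ z ∈ S, x ⊓ (y ⊔ z) = (x ⊓ y) ⊔ (x ⊓ z)) :
    Representable S :=
  hK.distrib_sublattice S hbot htop hdist
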