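import Vale.Agent.Lib.P183.L7.Main

open Vale.Agent.Lib.P183

/-- The seven element lattice with atoms `1, 2, 3`, coatoms `1, 4, 5` and further relations
`2 < 5`, `3 < 4`, `3 < 5` (the case left open by DeMeo) is isomorphic to the congruence lattice of
a finite algebra, and to an interval in the subgroup lattice of a finite group. -/
theorem Vale.Agent.Results.P183.SevenElementException.result :
    Representable SevenLattice ∧
      ∃ (G : Type) (_ : Group G) (_ : Finite G) (H : Subgroup G),
        Nonempty (Set.Icc H (⊤ : Subgroup G) ≃o SevenLattice) :=
  ⟨L7.representable_seven, L7.exists_interval⟩
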