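import Vale.Agent.Results.P183.AtMostSevenElements
import Vale.Agent.Results.P183.Carving
import Vale.Agent.Results.P183.DistribSublattice
import Vale.Agent.Results.P183.SevenElementException

open Vale.Agent.Lib.P183

/-- Conjunction of the results on representable lattices: all lattices with at most seven elements,
the seven element exception also as an interval in a subgroup lattice, and two closure properties. -/
theorem Vale.Agent.Results.P183.A0Conj.result :
    (∀ {L : Type*} [Lattice L] [Finite L] [Nonempty L] (_ : Nat.card L ≤ 7), Representable L) ∧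
    (Representable SevenLattice ∧
      ∃ (G : Type) (_ : Group G) (_ : Finite G) (H : Subgroup G),
        Nonempty (Set.Icc H (⊤ : Subgroup G) ≃o SevenLattice)) ∧
    (∀ {K : Type*} [PartialOrder K] (_ : Representable K) {ι : Type*} (a m : ι → K),
      Representable {x : K // ∀ i, x ≤ m i ∨ a i ≤ x}) ∧
    (∀ {K : Type*} [Lattice K] [BoundedOrder K] (_ : Representable K) (S : Sublattice K)
      (_ : ⊥ ∈ S) (_ : ⊤ ∈ S)
      (_ : ∀ x ∈ S, ∀ y ∈ S, ∀ z ∈ S, x ⊓ (y ⊔ z) = (x ⊓ y) ⊔ (x ⊓ z)), Representable S) :=
  ⟨@Vale.Agent.Results.P183.AtMostSevenElements.result,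
    Vale.Agent.Results.P183.SevenElementException.result,
    @Vale.Agent.Results.P183.Carving.result,
    @Vale.Agent.Results.P183.DistribSublattice.result⟩
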